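/-
helper27 — S0112 (row 84), package B of helper72's proof (notes/s0112/PROOF.md):
the Fourier kernel.  Mathlib only.

`exists_kernel`: there is an absolute constant `C₀` such that for every centre `s` and every
half-width `δ > 0` there is a continuous integrable `f : ℝ → ℂ` with `∫ ‖f‖ ≤ C₀` whose
"character transform" `F u = ∫ f t * exp (I * (t * u))` is a bounded continuous function with
values in `[0, 1]`, equal to `1` on `[s - δ, s + δ]` and to `0` off `[s - 2δ, s + 2δ]`.
The phase is written exactly as in `Crest.OpAlg.LineCalculus.character`.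
-/
import Mathlib

set_option autoImplicit false

open MeasureTheory Real
open scoped FourierTransform SchwartzMap

namespace Crest.Agent.Helper27.S0112

noncomputable section

/-- The fixed bump on `ℝ`: `1` on `[-1, 1]`, `0` off `(-2, 2)`. -/
def bump0 : ContDiffBump (0 : ℝ) := ⟨1, 2, one_pos, one_lt_two⟩

/-- The bump as a complex valued function. -/
def bumpC : ℝ → ℂ := fun u => ((bump0 u : ℝ) : ℂ)

lemma bumpC_contDiff : ContDiff ℝ (⊤ : ℕ∞) bumpC :=
  Complex.ofRealCLM.contDiff.comp bump0.contDiff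

lemma bumpC_hasCompactSupport : HasCompactSupport bumpC :=
  bump0.hasCompactSupport.comp_left Complex.ofReal_zero

/-- The bump as a Schwartz function. -/
def bumpS : 𝓢(ℝ, ℂ) := bumpC_hasCompactSupport.toSchwartzMap bumpC_contDiff

/-- The Fourier transform of the bump (a Schwartz function, used as a plain function). -/
def kern0 : ℝ → ℂ := fun v => (𝓕 bumpS) v

lemma kern0_continuous : Continuous kern0 := (𝓕 bumpS).continuous

lemma kern0_integrable : Integrable kern0 := (𝓕 bumpS).integrable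

/-- Fourier inversion for the bump. -/
lemma bumpC_eq_integral (w : ℝ) :
    bumpC w = ∫ v : ℝ, Complex.exp ((↑(2 * π * (v * w)) : ℂ) * Complex.I) * kern0 v := by
  have h1 : 𝓕⁻ (𝓕 bumpS) = bumpS := FourierTransform.fourierInv_fourier_eq bumpS
  have h2 : (𝓕⁻ (𝓕 bumpS)) w = bumpC w := by rw [h1]; rfl
  rw [← h2, SchwartzMap.fourierInv_coe, Real.fourierInv_eq']
  refine integral_congr_ae (Filter.Eventually.of_forall fun v => ?_)
  simp [kern0, mul_comm]

lemma bumpC_re (w : ℝ) : (bumpC w).re = bump0 w := by simp [bumpC]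

lemma bumpC_im (w : ℝ) : (bumpC w).im = 0 := by simp [bumpC]

lemma bumpC_continuous : Continuous bumpC :=
  Complex.continuous_ofReal.comp bump0.continuous

/-- **Package B1** (kernel).  One absolute constant `C₀` bounds the `L¹` norms of kernels `f`
whose character transform is a `[0,1]`-valued plateau function at any centre `s` and any
width `δ > 0`. -/
theorem exists_kernel :
    ∃ C₀ : ℝ, 0 ≤ C₀ ∧ ∀ (s δ : ℝ), 0 < δ →
      ∃ f : ℝ → ℂ, Continuous f ∧ Integrable f ∧ (∫ t, ‖f t‖) ≤ C₀ ∧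
        ∃ F : BoundedContinuousFunction ℝ ℂ,
          (∀ u, F u = ∫ t, f t * Complex.exp (Complex.I * ((t * u : ℝ) : ℂ))) ∧
          (∀ u, (F u).im = 0 ∧ 0 ≤ (F u).re ∧ (F u).re ≤ 1) ∧
          (∀ u ∈ Set.Icc (s - δ) (s + δ), F u = 1) ∧
          (∀ u, u ∉ Set.Icc (s - 2 * δ) (s + 2 * δ) → F u = 0) := by
  refine ⟨∫ v, ‖kern0 v‖, integral_nonneg (fun _ => norm_nonneg _), fun s δ hδ => ?_⟩
  set a : ℝ := δ / (2 * π) with ha
  have ha0 : 0 < a := by positivity
  let f : ℝ → ℂ := fun τ =>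
    (a : ℂ) * (kern0 (a * τ) * Complex.exp (-(Complex.I * ((τ * s : ℝ) : ℂ))))
  have hfc : Continuous f := by
    have hk := kern0_continuous
    show Continuous fun τ : ℝ =>
      (a : ℂ) * (kern0 (a * τ) * Complex.exp (-(Complex.I * ((τ * s : ℝ) : ℂ))))
    fun_prop
  have hnorm : ∀ τ, ‖f τ‖ = a * ‖kern0 (a * τ)‖ := by
    intro τ
    have h1 : ‖Complex.exp (-(Complex.I * ((τ * s : ℝ) : ℂ)))‖ = 1 := by
      rw [Complex.norm_exp]; simp
    show ‖(a : ℂ) * (kern0 (a * τ) * Complex.exp (-(Complex.I * ((τ * s : ℝ) : ℂ))))‖ = _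
    rw [norm_mul, norm_mul, h1, mul_one, Complex.norm_real, Real.norm_eq_abs, abs_of_pos ha0]
  have hkint : Integrable (fun τ => kern0 (a * τ)) := kern0_integrable.comp_mul_left' ha0.ne'
  have hfi : Integrable f := by
    refine (integrable_norm_iff hfc.aestronglyMeasurable).1 ?_
    simp_rw [hnorm]
    exact (hkint.norm).const_mul a
  have hfn : (∫ t, ‖f t‖) = ∫ v, ‖kern0 v‖ := by
    simp_rw [hnorm]
    rw [integral_const_mul, Measure.integral_comp_mul_left (fun v => ‖kern0 v‖) a,
      abs_of_pos (inv_pos.2 ha0), smul_eq_mul, ← mul_assoc, mul_inv_cancel₀ ha0.ne', one_mul]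
  -- the transform
  have hkey : ∀ u : ℝ, bumpC ((u - s) / δ) =
      ∫ t, f t * Complex.exp (Complex.I * ((t * u : ℝ) : ℂ)) := by
    intro u
    set w : ℝ := (u - s) / δ with hw
    let Hf : ℝ → ℂ := fun v => Complex.exp ((↑(2 * π * (v * w)) : ℂ) * Complex.I) * kern0 v
    have h1 : ∀ t : ℝ, f t * Complex.exp (Complex.I * ((t * u : ℝ) : ℂ)) = (a : ℂ) * Hf (a * t) := by
      intro t
      show (a : ℂ) * (kern0 (a * t) * Complex.exp (-(Complex.I * ((t * s : ℝ) : ℂ)))) *
          Complex.exp (Complex.I * ((t * u : ℝ) : ℂ)) =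
        (a : ℂ) * (Complex.exp ((↑(2 * π * (a * t * w)) : ℂ) * Complex.I) * kern0 (a * t))
      have h2 : 2 * π * (a * t * w) = t * u - t * s := by
        rw [ha, hw]; field_simp
      have hexp : Complex.exp (-(Complex.I * ((t * s : ℝ) : ℂ))) *
          Complex.exp (Complex.I * ((t * u : ℝ) : ℂ)) =
          Complex.exp ((↑(t * u - t * s) : ℂ) * Complex.I) := by
        rw [← Complex.exp_add]; congr 1; push_cast; ring
      rw [h2, ← hexp]; ring
    simp_rw [h1]
    rw [integral_const_mul, Measure.integral_comp_mul_left Hf a, abs_of_pos (inv_pos.2 ha0),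
      Complex.real_smul, ← mul_assoc, ← Complex.ofReal_mul, mul_inv_cancel₀ ha0.ne',
      Complex.ofReal_one, one_mul]
    exact bumpC_eq_integral w
  have hFc : Continuous fun u : ℝ => bumpC ((u - s) / δ) :=
    bumpC_continuous.comp (by fun_prop)
  have hFb : ∀ u : ℝ, ‖bumpC ((u - s) / δ)‖ ≤ 1 := by
    intro u
    show ‖((bump0 ((u - s) / δ) : ℝ) : ℂ)‖ ≤ 1
    rw [Complex.norm_real, Real.norm_eq_abs, abs_of_nonneg bump0.nonneg]
    exact bump0.le_one
  refine ⟨f, hfc, hfi, hfn.le,
    BoundedContinuousFunction.ofNormedAddCommGroup (fun u : ℝ => bumpC ((u - s) / δ)) hFc 1 hFb,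
    fun u => hkey u, fun u => ⟨bumpC_im _, ?_, ?_⟩, fun u hu => ?_, fun u hu => ?_⟩
  · show 0 ≤ (bumpC ((u - s) / δ)).re
    rw [bumpC_re]; exact bump0.nonneg
  · show (bumpC ((u - s) / δ)).re ≤ 1
    rw [bumpC_re]; exact bump0.le_one
  · show bumpC ((u - s) / δ) = 1
    have hmem : (u - s) / δ ∈ Metric.closedBall (0 : ℝ) bump0.rIn := by
      rw [Metric.mem_closedBall, Real.dist_eq, sub_zero, abs_div, abs_of_pos hδ]
      show |u - s| / δ ≤ 1
      rw [div_le_one hδ, abs_le]
      constructor <;> linarith [hu.1, hu.2]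
    show ((bump0 ((u - s) / δ) : ℝ) : ℂ) = 1
    rw [bump0.one_of_mem_closedBall hmem]; simp
  · show bumpC ((u - s) / δ) = 0
    have hfar : bump0.rOut ≤ dist ((u - s) / δ) 0 := by
      rw [Real.dist_eq, sub_zero, abs_div, abs_of_pos hδ]
      show (2 : ℝ) ≤ |u - s| / δ
      rw [le_div_iff₀ hδ]
      by_contra hcon
      have hcon' : |u - s| < 2 * δ := not_le.1 hcon
      apply hu
      rw [abs_lt] at hcon'
      constructor <;> linarith [hcon'.1, hcon'.2]
    show ((bump0 ((u - s) / δ) : ℝ) : ℂ) = 0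
    rw [bump0.zero_of_le_dist hfar]; simp

end

end Crest.Agent.Helper27.S0112
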